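import Vale.Agent.P347.LB4

open Filter MeasureTheory ProbabilityTheory Vale.Agent.P347.Stmt

theorem Vale.Agent.Results.P347.A_full.result :
    (∃ c : ℝ, 0 < c ∧ ∀ d : ℕ, 2 ≤ d → c * Real.log d ≤ Q d) ∧
    (∀ ε : ℝ, 0 < ε → ∃ C : ℝ, ∀ d : ℕ, 2 ≤ d →
      (∃ q m : ℕ, (q : ℝ) ≤ C * (d : ℝ) ^ ε ∧
        SolvesOn (Measure.pi fun _ : Fin m => gaussianReal 0 1) d q) ∧
      Solves d (Q d) ∧ (Q d : ℝ) ≤ C * (d : ℝ) ^ ε) ∧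
    Tendsto (fun d : ℕ => Real.log (Q d) / Real.log d) atTop (nhds 0) ∧
    limsup (fun d : ℕ => Real.log (Q d) / Real.log d) atTop = 0 :=
  ⟨Vale.Agent.P347.lower_bound, fun _ hε => Vale.Agent.P347.upper_both hε,
    Vale.Agent.P347.stmt_tendsto, Vale.Agent.P347.stmt_tendsto.limsup_eq⟩
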