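import Vale.Agent.P347.Final2

open Filter MeasureTheory ProbabilityTheory Vale.Agent.P347.Stmt

theorem Vale.Agent.Results.P347.B_upper.result :
    (∀ ε : ℝ, 0 < ε → ∃ C : ℝ, ∀ d : ℕ, 2 ≤ d →
      (∃ q m : ℕ, (q : ℝ) ≤ C * (d : ℝ) ^ ε ∧
        SolvesOn (Measure.pi fun _ : Fin m => gaussianReal 0 1) d q) ∧
      Solves d (Q d) ∧ (Q d : ℝ) ≤ C * (d : ℝ) ^ ε) ∧
    Tendsto (fun d : ℕ => Real.log (Q d) / Real.log d) atTop (nhds 0) ∧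
    limsup (fun d : ℕ => Real.log (Q d) / Real.log d) atTop = 0 :=
  ⟨fun _ hε => Vale.Agent.P347.upper_both hε, Vale.Agent.P347.stmt_tendsto,
    Vale.Agent.P347.stmt_tendsto.limsup_eq⟩
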